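import Mathlib

namespace Vale.Agent.H18.P150

open MeasureTheory ProbabilityTheory

theorem pdf_eq (t : ℝ) : gaussianPDFReal 0 1 t =
    (Real.sqrt (2 * Real.pi))⁻¹ * Real.exp (-(1/2) * t ^ 2) := by
  unfold gaussianPDFReal
  simp
  left
  ring

theorem hasDerivAt_pdf (t : ℝ) :
    HasDerivAt (fun t => -gaussianPDFReal 0 1 t) (t * gaussianPDFReal 0 1 t) t := by
  have h1 : HasDerivAt (fun t : ℝ => -(1/2 : ℝ) * t ^ 2) (-(1/2 : ℝ) * (2 * t)) t := by
    have h := (hasDerivAt_pow 2 t).const_mul (-(1/2 : ℝ))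
    simpa using h
  have h3 := (h1.exp.const_mul ((Real.sqrt (2 * Real.pi))⁻¹)).neg
  have e : (fun t => -gaussianPDFReal 0 1 t) =
      fun t => -((Real.sqrt (2 * Real.pi))⁻¹ * Real.exp (-(1/2) * t ^ 2)) := by
    ext t; rw [pdf_eq]
  rw [e, pdf_eq]
  refine h3.congr_deriv ?_
  ring

theorem int_pdf_mul : Integrable (fun t : ℝ => t * gaussianPDFReal 0 1 t) := by
  have h := (integrable_mul_exp_neg_mul_sq (b := 1/2) (by norm_num)).const_mul
    ((Real.sqrt (2 * Real.pi))⁻¹)
  refine h.congr (Filter.Eventually.of_forall fun t => ?_)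
  simp only [pdf_eq]
  ring

theorem ibp1 (f f' : ℝ → ℝ) (hd : ∀ t, HasDerivAt f (f' t) t) (C : ℝ) (hf : ∀ t, |f t| ≤ C)
    (hf' : ∀ t, |f' t| ≤ C) (hm : Measurable f') :
    ∫ t, t * f t ∂(gaussianReal 0 1) = ∫ t, f' t ∂(gaussianReal 0 1) := by
  have hfc : Continuous f := continuous_iff_continuousAt.2 fun t => (hd t).continuousAt
  have hpdf : Integrable (gaussianPDFReal 0 1) := integrable_gaussianPDFReal 0 1
  rw [integral_gaussianReal_eq_integral_smul (by norm_num),
    integral_gaussianReal_eq_integral_smul (by norm_num)]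
  have key := integral_mul_deriv_eq_deriv_mul_of_integrable (u := f) (u' := f')
    (v := fun t => -gaussianPDFReal 0 1 t) (v' := fun t => t * gaussianPDFReal 0 1 t)
    (fun x _ => hd x) (fun x _ => hasDerivAt_pdf x) ?_ ?_ ?_
  · calc ∫ x, gaussianPDFReal 0 1 x • (x * f x) = ∫ x, f x * (x * gaussianPDFReal 0 1 x) := by
          congr 1; ext x; simp only [smul_eq_mul]; ring
      _ = - ∫ x, f' x * (-gaussianPDFReal 0 1 x) := key
      _ = ∫ x, gaussianPDFReal 0 1 x • f' x := by
          rw [← integral_neg]; congr 1; ext x; simp only [smul_eq_mul]; ring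
  · exact int_pdf_mul.bdd_mul (c := C) hfc.aestronglyMeasurable
      (Filter.Eventually.of_forall fun t => by simpa using hf t)
  · exact hpdf.neg.bdd_mul (c := C) hm.aestronglyMeasurable
      (Filter.Eventually.of_forall fun t => by simpa using hf' t)
  · exact hpdf.neg.bdd_mul (c := C) hfc.aestronglyMeasurable
      (Filter.Eventually.of_forall fun t => by simpa using hf t)

end Vale.Agent.H18.P150
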