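import Mathlib

namespace Vale.Agent.H18.P150

open MeasureTheory ProbabilityTheory

theorem maxBound_of {ι X : Type} [Fintype ι] [Fintype X] [Nonempty X] (a : X → ι → ℝ) (V : ℝ)
    (hexp : ∀ c : ι → ℝ, Integrable (fun G : ι → ℝ => Real.exp (∑ e, c e * G e))
      (Measure.pi (fun _ : ι => gaussianReal 0 1)) ∧
      ∫ G, Real.exp (∑ e, c e * G e) ∂(Measure.pi (fun _ : ι => gaussianReal 0 1))
        = Real.exp ((∑ e, c e ^ 2) / 2))
    (hV : ∀ x, ∑ e, a x e ^ 2 ≤ V) (l : ℝ) (hl : 0 < l)
    (Av : (ι → ℝ) → ℝ) (hAm : Integrable Av (Measure.pi (fun _ : ι => gaussianReal 0 1)))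
    (hA : ∀ G, l * Av G ≤ Real.log (∑ x, Real.exp (l * ∑ e, a x e * G e))) :
    l * ∫ G, Av G ∂(Measure.pi (fun _ : ι => gaussianReal 0 1))
      ≤ Real.log (Fintype.card X) + l ^ 2 * V / 2 := by
  set μ := Measure.pi (fun _ : ι => gaussianReal 0 1) with hμ
  have hprob : IsProbabilityMeasure μ := by rw [hμ]; infer_instance
  have hrew : ∀ (x : X) (G : ι → ℝ), Real.exp (l * ∑ e, a x e * G e) =
      Real.exp (∑ e, (l * a x e) * G e) := by
    intro x G
    congr 1
    rw [Finset.mul_sum]
    exact Finset.sum_congr rfl fun e _ => by ring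
  have hint : ∀ x : X, Integrable (fun G : ι → ℝ => Real.exp (l * ∑ e, a x e * G e)) μ := by
    intro x
    have h := (hexp (fun e => l * a x e)).1
    exact h.congr (Filter.Eventually.of_forall fun G => (hrew x G).symm)
  have hval : ∀ x : X, ∫ G, Real.exp (l * ∑ e, a x e * G e) ∂μ ≤ Real.exp (l ^ 2 * V / 2) := by
    intro x
    have h := (hexp (fun e => l * a x e)).2
    have h2 : ∫ G, Real.exp (l * ∑ e, a x e * G e) ∂μ =
        Real.exp ((∑ e, (l * a x e) ^ 2) / 2) := by
      rw [← h]
      exact integral_congr_ae (Filter.Eventually.of_forall fun G => hrew x G)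
    rw [h2]
    apply Real.exp_le_exp.2
    have h3 : ∑ e, (l * a x e) ^ 2 = l ^ 2 * ∑ e, a x e ^ 2 := by
      rw [Finset.mul_sum]
      exact Finset.sum_congr rfl fun e _ => by ring
    rw [h3]
    have := mul_le_mul_of_nonneg_left (hV x) (sq_nonneg l)
    linarith
  have hcard : (0 : ℝ) < Fintype.card X := by exact_mod_cast Fintype.card_pos
  set c : ℝ := Fintype.card X * Real.exp (l ^ 2 * V / 2) with hc
  have hcpos : 0 < c := mul_pos hcard (Real.exp_pos _)
  set Z : (ι → ℝ) → ℝ := fun G => ∑ x, Real.exp (l * ∑ e, a x e * G e) with hZ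
  have hZint : Integrable Z μ := integrable_finsetSum _ fun x _ => hint x
  have hZpos : ∀ G, 0 < Z G := fun G =>
    Finset.sum_pos (fun x _ => Real.exp_pos _) Finset.univ_nonempty
  have hZE : ∫ G, Z G ∂μ ≤ c := by
    rw [hZ, integral_finsetSum _ fun x _ => hint x]
    calc ∑ x, ∫ G, Real.exp (l * ∑ e, a x e * G e) ∂μ
        ≤ ∑ _x : X, Real.exp (l ^ 2 * V / 2) := Finset.sum_le_sum fun x _ => hval x
      _ = c := by rw [Finset.sum_const, nsmul_eq_mul, Finset.card_univ]
  have hlog : ∀ G, l * Av G ≤ Z G / c - 1 + Real.log c := by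
    intro G
    have h1 : Real.log (Z G) ≤ Z G / c - 1 + Real.log c := by
      have h2 := Real.log_le_sub_one_of_pos (div_pos (hZpos G) hcpos)
      rw [Real.log_div (hZpos G).ne' hcpos.ne'] at h2
      linarith
    exact (hA G).trans h1
  have hfin : ∫ G, l * Av G ∂μ ≤ ∫ G, (Z G / c - 1 + Real.log c) ∂μ := by
    apply integral_mono (hAm.const_mul l)
    · have e : (fun G => Z G / c - 1 + Real.log c) = fun G => Z G / c + (Real.log c - 1) := by
        ext G; ring
      rw [e]
      exact (hZint.div_const c).add (integrable_const _)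
    · exact hlog
  rw [integral_const_mul] at hfin
  have hcomp : ∫ G, (Z G / c - 1 + Real.log c) ∂μ = (∫ G, Z G ∂μ) / c - 1 + Real.log c := by
    have e : (fun G => Z G / c - 1 + Real.log c) = fun G => Z G / c + (Real.log c - 1) := by
      ext G; ring
    rw [e, integral_add (hZint.div_const c) (integrable_const _), integral_div]
    simp
    ring
  rw [hcomp] at hfin
  have h5 : (∫ G, Z G ∂μ) / c ≤ 1 := (div_le_one hcpos).2 hZE
  have h6 : Real.log c = Real.log (Fintype.card X) + l ^ 2 * V / 2 := by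
    rw [hc, Real.log_mul hcard.ne' (Real.exp_pos _).ne', Real.log_exp]
  rw [h6] at hfin
  linarith

end Vale.Agent.H18.P150
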